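/-
Package M of row 299 (S0453, switch chain): from the gap of the unnormalised switch Laplacian to
the Poincare inequality and the mixing bound for the frozen kernel.
-/
import Mathlib
import Crest.Prelude.Def_SwitchChain

set_option autoImplicit false

namespace Crest.Agent.SW

open Finset Crest.SwitchChain

/-! ### abstract part -/

section abstract
variable {α : Type*} [DecidableEq α]

/-- one step contraction for a lazy symmetric chain with a spectral gap -/
theorem step_contract (Ω : Finset α) (K : α → α → ℝ) (hK0 : ∀ x y, 0 ≤ K x y)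
    (hsymm : ∀ x ∈ Ω, ∀ y ∈ Ω, K x y = K y x) (hrow : ∀ x ∈ Ω, ∑ y ∈ Ω, K x y = 1 / 2)
    (P : α → α → ℝ) (hP : ∀ x y, P x y = (if x = y then 1 / 2 else 0) + K x y)
    (ρ : ℝ) (hρ : 0 < ρ)
    (hgap : ∀ f : α → ℝ, ∑ x ∈ Ω, f x = 0 →
      ∑ x ∈ Ω, f x * ∑ y ∈ Ω, P x y * f y ≤ ρ * ∑ x ∈ Ω, f x ^ 2)
    (f : α → ℝ) (hf : ∑ x ∈ Ω, f x = 0) :
    ∑ x ∈ Ω, (∑ y ∈ Ω, P x y * f y) ^ 2 ≤ ρ ^ 2 * ∑ x ∈ Ω, f x ^ 2 ∧
      ∑ x ∈ Ω, (∑ y ∈ Ω, P x y * f y) = 0 := by
  have hPs : ∀ x ∈ Ω, ∀ y ∈ Ω, P x y = P y x := by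
    intro x hx y hy
    rw [hP, hP, hsymm x hx y hy]
    by_cases h : x = y
    · simp [h]
    · simp [h, Ne.symm h]
  have hPr : ∀ x ∈ Ω, ∑ y ∈ Ω, P x y = 1 := by
    intro x hx
    simp_rw [hP]
    rw [Finset.sum_add_distrib, hrow x hx, Finset.sum_ite_eq, if_pos hx]
    norm_num
  -- positivity of the form
  have hpos : ∀ u : α → ℝ, 0 ≤ ∑ x ∈ Ω, u x * ∑ y ∈ Ω, P x y * u y := by
    intro u
    have e1 : ∑ x ∈ Ω, u x * ∑ y ∈ Ω, P x y * u y
        = ∑ x ∈ Ω, (1/2 * u x ^ 2) + ∑ x ∈ Ω, ∑ y ∈ Ω, K x y * (u x * u y) := by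
      rw [← Finset.sum_add_distrib]
      refine Finset.sum_congr rfl fun x hx => ?_
      simp_rw [hP, add_mul, Finset.sum_add_distrib, ite_mul, zero_mul]
      rw [Finset.sum_ite_eq, if_pos hx, mul_add, Finset.mul_sum]
      congr 1
      · ring
      · refine Finset.sum_congr rfl fun y _ => by ring
    have e2 : ∑ x ∈ Ω, ∑ y ∈ Ω, K x y * u y ^ 2 = ∑ x ∈ Ω, ∑ y ∈ Ω, K x y * u x ^ 2 := by
      rw [Finset.sum_comm]
      refine Finset.sum_congr rfl fun x hx => Finset.sum_congr rfl fun y hy => ?_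
      rw [hsymm x hx y hy]
    have e3 : ∑ x ∈ Ω, ∑ y ∈ Ω, K x y * u x ^ 2 = ∑ x ∈ Ω, (1/2 * u x ^ 2) := by
      refine Finset.sum_congr rfl fun x hx => ?_
      rw [← Finset.sum_mul, hrow x hx]
    have e4 : ∑ x ∈ Ω, ∑ y ∈ Ω, K x y * (-(u x ^ 2 + u y ^ 2) / 2)
        ≤ ∑ x ∈ Ω, ∑ y ∈ Ω, K x y * (u x * u y) := by
      refine Finset.sum_le_sum fun x _ => Finset.sum_le_sum fun y _ => ?_
      refine mul_le_mul_of_nonneg_left ?_ (hK0 x y)
      nlinarith [sq_nonneg (u x + u y)]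
    have e5 : ∑ x ∈ Ω, ∑ y ∈ Ω, K x y * (-(u x ^ 2 + u y ^ 2) / 2)
        = -(1/2) * (∑ x ∈ Ω, ∑ y ∈ Ω, K x y * u x ^ 2) - (1/2) * ∑ x ∈ Ω, ∑ y ∈ Ω, K x y * u y ^ 2 := by
      rw [Finset.mul_sum, Finset.mul_sum, ← Finset.sum_sub_distrib]
      refine Finset.sum_congr rfl fun x _ => ?_
      rw [Finset.mul_sum, Finset.mul_sum, ← Finset.sum_sub_distrib]
      refine Finset.sum_congr rfl fun y _ => by ring
    rw [e5, e2, e3] at e4
    rw [e1]
    linarith
  set g : α → ℝ := fun x => ∑ y ∈ Ω, P x y * f y with hg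
  have hsumg : ∑ x ∈ Ω, g x = 0 := by
    rw [hg]
    simp only
    rw [Finset.sum_comm]
    have : ∀ y ∈ Ω, ∑ x ∈ Ω, P x y * f y = f y := by
      intro y hy
      rw [← Finset.sum_mul]
      have : ∑ x ∈ Ω, P x y = 1 := by
        rw [← hPr y hy]
        exact Finset.sum_congr rfl fun x hx => hPs x hx y hy
      rw [this, one_mul]
    rw [Finset.sum_congr rfl this, hf]
  refine ⟨?_, hsumg⟩
  have h1 := hgap f hf
  have h2 := hgap g hsumg
  have h3 := hpos (fun x => f x - ρ⁻¹ * g x)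
  have e6 : ∑ x ∈ Ω, (f x - ρ⁻¹ * g x) * ∑ y ∈ Ω, P x y * (f y - ρ⁻¹ * g y)
      = (∑ x ∈ Ω, f x * g x) - ρ⁻¹ * (∑ x ∈ Ω, g x ^ 2)
        - ρ⁻¹ * (∑ x ∈ Ω, f x * ∑ y ∈ Ω, P x y * g y)
        + ρ⁻¹ ^ 2 * (∑ x ∈ Ω, g x * ∑ y ∈ Ω, P x y * g y) := by
    have : ∀ x, ∑ y ∈ Ω, P x y * (f y - ρ⁻¹ * g y) = g x - ρ⁻¹ * ∑ y ∈ Ω, P x y * g y := by
      intro x
      rw [hg]
      simp only
      rw [Finset.mul_sum, ← Finset.sum_sub_distrib]
      refine Finset.sum_congr rfl fun y _ => by ring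
    simp_rw [this]
    rw [Finset.mul_sum, Finset.mul_sum, Finset.mul_sum, ← Finset.sum_sub_distrib,
      ← Finset.sum_sub_distrib, ← Finset.sum_add_distrib]
    refine Finset.sum_congr rfl fun x _ => by ring
  have e7 : ∑ x ∈ Ω, f x * ∑ y ∈ Ω, P x y * g y = ∑ x ∈ Ω, g x ^ 2 := by
    have a1 : ∑ x ∈ Ω, f x * ∑ y ∈ Ω, P x y * g y = ∑ x ∈ Ω, ∑ y ∈ Ω, f x * (P x y * g y) :=
      Finset.sum_congr rfl fun x _ => Finset.mul_sum _ _ _
    rw [a1, Finset.sum_comm]
    refine Finset.sum_congr rfl fun y hy => ?_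
    have a2 : g y ^ 2 = g y * ∑ x ∈ Ω, P y x * f x := by rw [sq]
    rw [a2, Finset.mul_sum]
    refine Finset.sum_congr rfl fun x hx => ?_
    rw [hPs x hx y hy]
    ring
  rw [e6, e7] at h3
  have hρi : 0 < ρ⁻¹ := inv_pos.2 hρ
  set A := ∑ x ∈ Ω, f x ^ 2 with hA
  set B := ∑ x ∈ Ω, g x ^ 2 with hB
  have h4 : ∑ x ∈ Ω, f x * g x ≤ ρ * A := h1
  have h5 : ρ⁻¹ ^ 2 * (∑ x ∈ Ω, g x * ∑ y ∈ Ω, P x y * g y) ≤ ρ⁻¹ ^ 2 * (ρ * B) :=
    mul_le_mul_of_nonneg_left h2 (by positivity)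
  have e8 : ρ⁻¹ ^ 2 * (ρ * B) = ρ⁻¹ * B := by
    field_simp
  have h6 : 0 ≤ ρ * A - ρ⁻¹ * B := by linarith
  have h7 : 0 ≤ ρ * (ρ * A - ρ⁻¹ * B) := mul_nonneg hρ.le h6
  have e9 : ρ * (ρ * A - ρ⁻¹ * B) = ρ ^ 2 * A - B := by
    field_simp
  change B ≤ ρ ^ 2 * A
  linarith

end abstract

section tv
variable {α : Type*} [Fintype α] [DecidableEq α]

/-- total variation bound for a lazy symmetric chain with a spectral gap -/
theorem tv_bound (Ω : Finset α) (hne : Ω.Nonempty) (K : α → α → ℝ) (hK0 : ∀ x y, 0 ≤ K x y)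
    (hsymm : ∀ x ∈ Ω, ∀ y ∈ Ω, K x y = K y x) (hrow : ∀ x ∈ Ω, ∑ y ∈ Ω, K x y = 1 / 2)
    (hout : ∀ x ∈ Ω, ∀ y ∉ Ω, K x y = 0)
    (P : Matrix α α ℝ) (hP : ∀ x y, P x y = (if x = y then 1 / 2 else 0) + K x y)
    (ρ : ℝ) (hρ : 0 < ρ)
    (hgap : ∀ f : α → ℝ, ∑ x ∈ Ω, f x = 0 →
      ∑ x ∈ Ω, f x * ∑ y ∈ Ω, P x y * f y ≤ ρ * ∑ x ∈ Ω, f x ^ 2)
    (x₀ : α) (hx₀ : x₀ ∈ Ω) (t : ℕ) :
    tvDist (fun y => (P ^ t) x₀ y) (unifOn Ω) ≤ Real.sqrt Ω.card * ρ ^ t / 2 := by
  have hcard : (0:ℝ) < Ω.card := by exact_mod_cast hne.card_pos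
  have hPo : ∀ x ∈ Ω, ∀ y ∉ Ω, P x y = 0 := by
    intro x hx y hy
    rw [hP, hout x hx y hy, if_neg (by rintro rfl; exact hy hx)]
    norm_num
  have hPs : ∀ x ∈ Ω, ∀ y ∈ Ω, P x y = P y x := by
    intro x hx y hy
    rw [hP, hP, hsymm x hx y hy]
    by_cases h : x = y
    · simp [h]
    · simp [h, Ne.symm h]
  have hPr : ∀ x ∈ Ω, ∑ y ∈ Ω, P x y = 1 := by
    intro x hx
    simp_rw [hP]
    rw [Finset.sum_add_distrib, hrow x hx, Finset.sum_ite_eq, if_pos hx]
    norm_num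
  -- powers vanish outside
  have hpo : ∀ t : ℕ, ∀ y ∉ Ω, (P ^ t) x₀ y = 0 := by
    intro t
    induction t with
    | zero =>
      intro y hy
      rw [pow_zero, Matrix.one_apply_ne (by rintro rfl; exact hy hx₀)]
    | succ t ih =>
      intro y hy
      rw [pow_succ, Matrix.mul_apply]
      refine Finset.sum_eq_zero fun z _ => ?_
      by_cases hz : z ∈ Ω
      · rw [hPo z hz y hy, mul_zero]
      · rw [ih z hz, zero_mul]
  set h : ℕ → α → ℝ := fun t y => (P ^ t) x₀ y - 1 / (Ω.card : ℝ) with hh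
  have hrec : ∀ t, ∀ y ∈ Ω, h (t + 1) y = ∑ z ∈ Ω, P y z * h t z := by
    intro t y hy
    rw [hh]
    simp only
    rw [pow_succ, Matrix.mul_apply]
    have e1 : ∑ z, (P ^ t) x₀ z * P z y = ∑ z ∈ Ω, (P ^ t) x₀ z * P z y := by
      symm
      apply Finset.sum_subset (Finset.subset_univ _)
      intro z _ hz
      rw [hpo t z hz, zero_mul]
    rw [e1]
    have e2 : ∑ z ∈ Ω, P y z * ((P ^ t) x₀ z - 1 / (Ω.card : ℝ))
        = ∑ z ∈ Ω, (P ^ t) x₀ z * P z y - (∑ z ∈ Ω, P y z) * (1 / (Ω.card : ℝ)) := by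
      rw [Finset.sum_mul, ← Finset.sum_sub_distrib]
      refine Finset.sum_congr rfl fun z hz => ?_
      rw [hPs y hy z hz]; ring
    rw [e2, hPr y hy, one_mul]
  have hmain : ∀ t, ∑ y ∈ Ω, h t y ^ 2 ≤ (ρ ^ t) ^ 2 ∧ ∑ y ∈ Ω, h t y = 0 := by
    intro t
    induction t with
    | zero =>
      have e0 : ∀ y, h 0 y = (if x₀ = y then 1 else 0) - 1 / (Ω.card : ℝ) := by
        intro y
        rw [hh]; simp only [pow_zero, Matrix.one_apply]
      constructor
      · simp_rw [e0]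
        have e1 : ∀ y, ((if x₀ = y then (1:ℝ) else 0) - 1 / (Ω.card : ℝ)) ^ 2
            = (if x₀ = y then (1:ℝ) - 2 / (Ω.card : ℝ) else 0) + (1 / (Ω.card : ℝ)) ^ 2 := by
          intro y
          split_ifs
          · ring
          · ring
        simp_rw [e1]
        rw [Finset.sum_add_distrib, Finset.sum_ite_eq, if_pos hx₀, Finset.sum_const, nsmul_eq_mul]
        have e2 : (Ω.card : ℝ) * (1 / (Ω.card : ℝ)) ^ 2 = 1 / (Ω.card : ℝ) := by field_simp
        have e3 : 0 < 1 / (Ω.card : ℝ) := by positivity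
        have e4 : 2 / (Ω.card : ℝ) = 2 * (1 / (Ω.card : ℝ)) := by ring
        rw [e2, e4]
        simp only [pow_zero, one_pow]
        linarith
      · simp_rw [e0]
        rw [Finset.sum_sub_distrib, Finset.sum_ite_eq, if_pos hx₀, Finset.sum_const, nsmul_eq_mul]
        field_simp
        simp
    | succ t ih =>
      have hs := step_contract Ω K hK0 hsymm hrow P hP ρ hρ hgap (h t) ih.2
      have e1 : ∑ y ∈ Ω, h (t + 1) y ^ 2 = ∑ y ∈ Ω, (∑ z ∈ Ω, P y z * h t z) ^ 2 :=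
        Finset.sum_congr rfl fun y hy => by rw [hrec t y hy]
      have e2 : ∑ y ∈ Ω, h (t + 1) y = ∑ y ∈ Ω, (∑ z ∈ Ω, P y z * h t z) :=
        Finset.sum_congr rfl fun y hy => by rw [hrec t y hy]
      refine ⟨?_, by rw [e2]; exact hs.2⟩
      rw [e1]
      refine hs.1.trans ?_
      have := mul_le_mul_of_nonneg_left ih.1 (sq_nonneg ρ)
      refine this.trans (le_of_eq ?_)
      ring
  unfold tvDist
  have e1 : ∑ y, |(P ^ t) x₀ y - unifOn Ω y| = ∑ y ∈ Ω, |h t y| := by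
    have : ∑ y ∈ Ω, |h t y| = ∑ y ∈ Ω, |(P ^ t) x₀ y - unifOn Ω y| := by
      refine Finset.sum_congr rfl fun y hy => ?_
      rw [hh]
      simp only [unifOn, if_pos hy]
    rw [this]
    symm
    apply Finset.sum_subset (Finset.subset_univ _)
    intro y _ hy
    rw [hpo t y hy, unifOn, if_neg hy]
    simp
  rw [e1]
  apply div_le_div_of_nonneg_right _ (by norm_num : (0:ℝ) ≤ 2)
  have hcs : (∑ y ∈ Ω, |h t y|) ^ 2 ≤ Ω.card * ∑ y ∈ Ω, |h t y| ^ 2 := sq_sum_le_card_mul_sum_sq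
  simp_rw [sq_abs] at hcs
  have h2 : (∑ y ∈ Ω, |h t y|) ^ 2 ≤ (Real.sqrt Ω.card * ρ ^ t) ^ 2 := by
    rw [mul_pow, Real.sq_sqrt hcard.le]
    exact hcs.trans (mul_le_mul_of_nonneg_left (hmain t).1 hcard.le)
  exact le_of_sq_le_sq h2 (by positivity)

end tv

/-! ### the switch chain -/

section pm
variable {n : ℕ}

/-- edge map of an embedding -/
def edgeMap {m n : ℕ} (φ : Fin m ↪ Fin n) : Edge m ↪ Edge n where
  toFun e := ⟨Sym2.map φ e.1, by
    intro h
    apply e.2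
    revert h
    generalize e.1 = s
    induction s with
    | _ x y => simp [Sym2.map_mk, Sym2.mk_isDiag_iff]⟩
  inj' := by
    intro e e' h
    have h1 : Sym2.map φ e.1 = Sym2.map φ e'.1 := congrArg Subtype.val h
    exact Subtype.ext (Sym2.map.injective φ.injective h1)

lemma mem_edgeMap {m n : ℕ} (φ : Fin m ↪ Fin n) (e : Edge m) (v : Fin m) :
    φ v ∈ (edgeMap φ e).1 ↔ v ∈ e.1 := by
  simp only [edgeMap, Function.Embedding.coeFn_mk, Sym2.mem_map]
  constructor
  · rintro ⟨a, ha, h⟩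
    rwa [← φ.injective h]
  · intro h; exact ⟨v, h, rfl⟩

lemma pmSet_map {m n : ℕ} (φ : Fin m ↪ Fin n) :
    pmSet ((univ : Finset (Fin m)).map φ) = (pmSet (univ : Finset (Fin m))).map
      ⟨Finset.map (edgeMap φ), Finset.map_injective _⟩ := by
  ext F
  simp only [pmSet, mem_filter, Finset.mem_powersetCard, Finset.mem_map, mem_univ, true_and,
    Function.Embedding.coeFn_mk, subset_univ, implies_true, true_implies]
  have key : ∀ (F₀ : Finset (Edge m)) (v : Fin m),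
      ((F₀.map (edgeMap φ)).filter fun e => φ v ∈ e.1).card = (F₀.filter fun e => v ∈ e.1).card := by
    intro F₀ v
    rw [Finset.filter_map, Finset.card_map]
    congr 1
    ext e
    simp only [mem_filter, Function.comp, mem_edgeMap]
  constructor
  · rintro ⟨hc, h1, h2⟩
    have hsub : F ⊆ (univ : Finset (Edge m)).map (edgeMap φ) := by
      intro e he
      have h3 := h1 e he
      rw [Finset.mem_map]
      obtain ⟨s, hs⟩ := e
      induction s with
      | _ x y =>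
        obtain ⟨a, ha⟩ := h3 x (by simp)
        obtain ⟨b, hb⟩ := h3 y (by simp)
        refine ⟨⟨s(a, b), ?_⟩, mem_univ _, ?_⟩
        · intro h
          apply hs
          rw [Sym2.mk_isDiag_iff] at h ⊢
          rw [← ha, ← hb, h]
        · apply Subtype.ext
          simp [edgeMap, ha, hb]
    obtain ⟨F₀, _, hF₀⟩ := Finset.subset_map_iff.1 hsub
    subst hF₀
    refine ⟨F₀, ⟨?_, ?_⟩, rfl⟩
    · rw [← hc, Finset.card_map]
    · intro v
      rw [← key]
      exact h2 (φ v) ⟨v, rfl⟩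
  · rintro ⟨F₀, ⟨hc, h2⟩, rfl⟩
    refine ⟨?_, ?_, ?_⟩
    · rw [Finset.card_map]; exact hc
    · intro e he v hv
      rw [Finset.mem_map] at he
      obtain ⟨e₀, _, rfl⟩ := he
      simp only [edgeMap, Function.Embedding.coeFn_mk, Sym2.mem_map] at hv
      obtain ⟨a, _, ha⟩ := hv
      exact ⟨a, ha⟩
    · rintro v ⟨a, rfl⟩
      rw [key]; exact h2 a

lemma pmSet_four : (pmSet (univ : Finset (Fin 4))).card = 3 := by decide +kernel

lemma pmSet_card (S : Finset (Fin n)) (hS : S.card = 4) : (pmSet S).card = 3 := by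
  have h := (S.orderEmbOfFin hS).toEmbedding
  have hS' : S = (univ : Finset (Fin 4)).map (S.orderEmbOfFin hS).toEmbedding := by
    ext v
    simp only [Finset.mem_map, mem_univ, true_and]
    have := Finset.range_orderEmbOfFin S hS
    rw [Set.ext_iff] at this
    have h2 := this v
    simp only [Set.mem_range, Finset.mem_coe] at h2
    exact h2.symm
  rw [hS', pmSet_map, Finset.card_map, pmSet_four]

/-- each vertex of `S` lies on exactly one edge of `F`, other vertices on none -/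
lemma pmSet_deg (S : Finset (Fin n)) (F : Finset (Edge n)) (hF : F ∈ pmSet S) (v : Fin n) :
    (F.filter fun e => v ∈ e.1).card = if v ∈ S then 1 else 0 := by
  simp only [pmSet, mem_filter] at hF
  obtain ⟨_, h1, h2⟩ := hF
  split_ifs with hv
  · exact h2 v hv
  · rw [Finset.card_eq_zero, Finset.filter_eq_empty_iff]
    intro e he hve
    exact hv (h1 e he v hve)

lemma switch_deg (S : Finset (Fin n)) (F F' E : Finset (Edge n)) (hF : F ∈ pmSet S)
    (hF' : F' ∈ pmSet S) (v : Fin n) : deg (switchResult E F F') v = deg E v := by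
  unfold switchResult
  split_ifs with h
  · obtain ⟨hFE, hFE'⟩ := h
    unfold deg
    have hd : Disjoint (E \ F) F' := (hFE'.mono_right (Finset.sdiff_subset)).symm
    rw [Finset.filter_union, Finset.card_union_of_disjoint (Finset.disjoint_filter_filter hd)]
    have e1 : ((E \ F).filter fun e => v ∈ e.1).card + (F.filter fun e => v ∈ e.1).card
        = (E.filter fun e => v ∈ e.1).card := by
      rw [← Finset.card_union_of_disjoint (Finset.disjoint_filter_filter Finset.sdiff_disjoint),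
        ← Finset.filter_union, Finset.sdiff_union_of_subset hFE]
    rw [pmSet_deg S F' hF' v, ← pmSet_deg S F hF v]
    exact e1
  · rfl

lemma switch_symm (E E' F F' : Finset (Edge n)) (hne : E ≠ E') (h : switchResult E F F' = E') :
    switchResult E' F' F = E := by
  unfold switchResult at h ⊢
  split_ifs at h with h1
  · obtain ⟨hFE, hFE'⟩ := h1
    have hd : Disjoint (E \ F) F' := (hFE'.mono_right (Finset.sdiff_subset)).symm
    have hFF' : Disjoint F F' := (hFE'.mono_right hFE).symm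
    have c1 : F' ⊆ E' := by rw [← h]; exact Finset.subset_union_right
    have c2 : Disjoint F E' := by
      rw [← h, Finset.disjoint_union_right]
      exact ⟨Finset.disjoint_sdiff, hFF'⟩
    rw [if_pos ⟨c1, c2⟩, ← h, Finset.union_sdiff_cancel_right hd, Finset.sdiff_union_of_subset hFE]
  · exact absurd h hne

lemma proposalCount_symm (E E' : Finset (Edge n)) : proposalCount E E' = proposalCount E' E := by
  by_cases hne : E = E'
  · rw [hne]
  unfold proposalCount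
  refine Finset.sum_congr rfl fun S _ => ?_
  have h1 : ∀ (A B : Finset (Edge n)), ∑ F ∈ pmSet S, ∑ F' ∈ (pmSet S).erase F,
      (if switchResult A F F' = B then 1 else 0)
      = ∑ F ∈ pmSet S, ∑ F' ∈ pmSet S, if F ≠ F' ∧ switchResult A F F' = B then 1 else 0 := by
    intro A B
    refine Finset.sum_congr rfl fun F _ => ?_
    have : (pmSet S).erase F = (pmSet S).filter (fun F' => F ≠ F') := by
      ext F'; simp only [Finset.mem_erase, mem_filter, ne_eq]
      constructor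
      · rintro ⟨a, b⟩; exact ⟨b, fun h => a h.symm⟩
      · rintro ⟨a, b⟩; exact ⟨fun h => b h.symm, a⟩
    rw [this, Finset.sum_filter]
    refine Finset.sum_congr rfl fun F' _ => ?_
    by_cases hF : F ≠ F'
    · simp [hF]
    · simp [hF]
  rw [h1, h1, Finset.sum_comm]
  refine Finset.sum_congr rfl fun F _ => Finset.sum_congr rfl fun F' _ => ?_
  have : (F' ≠ F ∧ switchResult E F' F = E') ↔ (F ≠ F' ∧ switchResult E' F F' = E) := by
    constructor
    · rintro ⟨a, b⟩; exact ⟨a.symm, switch_symm E E' F' F hne b⟩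
    · rintro ⟨a, b⟩; exact ⟨a.symm, switch_symm E' E F F' (Ne.symm hne) b⟩
  simp only [this]

lemma proposalCount_out (d : Fin n → ℕ) (E E' : Finset (Edge n)) (hE : E ∈ realizations d)
    (hE' : E' ∉ realizations d) : proposalCount E E' = 0 := by
  unfold proposalCount
  refine Finset.sum_eq_zero fun S _ => Finset.sum_eq_zero fun F hF => Finset.sum_eq_zero
    fun F' hF' => ?_
  rw [if_neg]
  rintro rfl
  apply hE'
  simp only [realizations, mem_filter, mem_univ, true_and] at hE ⊢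
  intro v
  rw [switch_deg S F F' E hF (Finset.mem_of_mem_erase hF') v, hE v]

lemma proposalCount_row (E : Finset (Edge n)) :
    ∑ E', proposalCount E E' = 6 * n.choose 4 := by
  unfold proposalCount
  rw [Finset.sum_comm]
  have h1 : ∀ S ∈ (univ : Finset (Fin n)).powersetCard 4,
      ∑ E' : Finset (Edge n), ∑ F ∈ pmSet S, ∑ F' ∈ (pmSet S).erase F,
        (if switchResult E F F' = E' then 1 else 0) = 6 := by
    intro S hS
    have hS4 : S.card = 4 := (Finset.mem_powersetCard.1 hS).2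
    rw [Finset.sum_comm]
    have h2 : ∀ F ∈ pmSet S, ∑ E' : Finset (Edge n), ∑ F' ∈ (pmSet S).erase F,
        (if switchResult E F F' = E' then 1 else 0) = 2 := by
      intro F hF
      rw [Finset.sum_comm]
      simp_rw [Finset.sum_ite_eq, mem_univ, if_true]
      rw [Finset.sum_const, Finset.card_erase_of_mem hF, pmSet_card S hS4]
      rfl
    rw [Finset.sum_congr rfl h2, Finset.sum_const, pmSet_card S hS4]
    rfl
  rw [Finset.sum_congr rfl h1, Finset.sum_const, Finset.card_powersetCard, Finset.card_univ,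
    Fintype.card_fin]
  simp [mul_comm]

lemma proposalCount_row_on (d : Fin n → ℕ) (E : Finset (Edge n)) (hE : E ∈ realizations d) :
    ∑ E' ∈ realizations d, (proposalCount E E' : ℝ) = 6 * n.choose 4 := by
  have h1 : ∑ E' ∈ realizations d, proposalCount E E' = ∑ E', proposalCount E E' := by
    apply Finset.sum_subset (Finset.subset_univ _)
    intro E' _ hE'
    exact proposalCount_out d E E' hE hE'
  have h2 := proposalCount_row E
  rw [← h1] at h2
  exact_mod_cast h2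

/-- Dirichlet form of the kernel -/
lemma dirichlet (hn : 4 ≤ n) (d : Fin n → ℕ) (f : Finset (Edge n) → ℝ) :
    ∑ G ∈ realizations d, f G * (f G - ∑ G' ∈ realizations d, kernel n G G' * f G')
      = 1 / (24 * (n.choose 4 : ℝ)) * ∑ G ∈ realizations d, ∑ G' ∈ realizations d,
        (proposalCount G G' : ℝ) * (f G - f G') ^ 2 := by
  set Ω := realizations d with hΩ
  set N : ℝ := (n.choose 4 : ℝ) with hN
  have hN0 : 0 < N := by
    rw [hN]; exact_mod_cast Nat.choose_pos hn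
  have h1 : ∀ G ∈ Ω, f G - ∑ G' ∈ Ω, kernel n G G' * f G'
      = 1 / (12 * N) * ∑ G' ∈ Ω, (proposalCount G G' : ℝ) * (f G - f G') := by
    intro G hG
    have e1 : ∑ G' ∈ Ω, kernel n G G' * f G' = 1 / 2 * f G
        + 1 / (12 * N) * ∑ G' ∈ Ω, (proposalCount G G' : ℝ) * f G' := by
      simp only [kernel, add_mul, Finset.sum_add_distrib, ite_mul, zero_mul]
      rw [Finset.sum_ite_eq, if_pos hG, Finset.mul_sum]
      congr 1
      refine Finset.sum_congr rfl fun G' _ => ?_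
      rw [← hN]; ring
    have e2 : ∑ G' ∈ Ω, (proposalCount G G' : ℝ) * (f G - f G')
        = (6 * N) * f G - ∑ G' ∈ Ω, (proposalCount G G' : ℝ) * f G' := by
      rw [hN, ← proposalCount_row_on d G hG, Finset.sum_mul, ← Finset.sum_sub_distrib]
      refine Finset.sum_congr rfl fun G' _ => by ring
    rw [e1, e2]
    field_simp
    ring
  have h2 : ∑ G ∈ Ω, f G * (f G - ∑ G' ∈ Ω, kernel n G G' * f G')
      = 1 / (12 * N) * ∑ G ∈ Ω, ∑ G' ∈ Ω, (proposalCount G G' : ℝ) * (f G * (f G - f G')) := by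
    rw [Finset.mul_sum]
    refine Finset.sum_congr rfl fun G hG => ?_
    rw [h1 G hG, Finset.mul_sum, Finset.mul_sum, Finset.mul_sum]
    refine Finset.sum_congr rfl fun G' _ => by ring
  have h3 : ∑ G ∈ Ω, ∑ G' ∈ Ω, (proposalCount G G' : ℝ) * (f G * (f G - f G'))
      = ∑ G ∈ Ω, ∑ G' ∈ Ω, (proposalCount G G' : ℝ) * (f G' * (f G' - f G)) := by
    rw [Finset.sum_comm]
    refine Finset.sum_congr rfl fun G _ => Finset.sum_congr rfl fun G' _ => ?_
    rw [proposalCount_symm]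
  have h4 : ∑ G ∈ Ω, ∑ G' ∈ Ω, (proposalCount G G' : ℝ) * (f G - f G') ^ 2
      = ∑ G ∈ Ω, ∑ G' ∈ Ω, (proposalCount G G' : ℝ) * (f G * (f G - f G'))
        + ∑ G ∈ Ω, ∑ G' ∈ Ω, (proposalCount G G' : ℝ) * (f G' * (f G' - f G)) := by
    rw [← Finset.sum_add_distrib]
    refine Finset.sum_congr rfl fun G _ => ?_
    rw [← Finset.sum_add_distrib]
    refine Finset.sum_congr rfl fun G' _ => by ring
  rw [← h3] at h4
  rw [h2, h4]
  field_simp
  ring

lemma card_edge_le (n : ℕ) : Fintype.card (Edge n) ≤ n ^ 2 := by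
  calc Fintype.card (Edge n) ≤ Fintype.card (Sym2 (Fin n)) :=
        Fintype.card_le_of_injective _ Subtype.val_injective
    _ ≤ Fintype.card (Fin n × Fin n) := by
        refine Fintype.card_le_of_surjective (fun p : Fin n × Fin n => s(p.1, p.2)) ?_
        intro s
        induction s with
        | _ x y => exact ⟨(x, y), rfl⟩
    _ = n ^ 2 := by simp [sq]

lemma card_real_le (d : Fin n → ℕ) : ((realizations d).card : ℝ) ≤ Real.exp ((n : ℝ) ^ 2) := by
  have h1 : (realizations d).card ≤ 2 ^ (n ^ 2) := by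
    calc (realizations d).card ≤ Fintype.card (Finset (Edge n)) := Finset.card_le_univ _
      _ = 2 ^ Fintype.card (Edge n) := Fintype.card_finset
      _ ≤ 2 ^ (n ^ 2) := Nat.pow_le_pow_right (by norm_num) (card_edge_le n)
  have h2 : ((realizations d).card : ℝ) ≤ (2:ℝ) ^ (n ^ 2) := by exact_mod_cast h1
  refine h2.trans ?_
  have h3 : (2:ℝ) ≤ Real.exp 1 := by
    have := Real.add_one_le_exp (1:ℝ)
    linarith
  calc (2:ℝ) ^ (n ^ 2) ≤ (Real.exp 1) ^ (n ^ 2) := pow_le_pow_left₀ (by norm_num) h3 _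
    _ = Real.exp ((n : ℝ) ^ 2) := by
      rw [← Real.exp_nat_mul]; congr 1; push_cast; ring

/-- the frozen statement from a gap of the unnormalised switch Laplacian. -/
theorem result_of_gap (n : ℕ) (hn : 4 ≤ n) (d : Fin n → ℕ) (hd : (realizations d).Nonempty)
    (lam : ℝ) (hlam : 1 / (2 * (n : ℝ) ^ 2) ≤ lam)
    (hgap : ∀ f : Finset (Edge n) → ℝ,
      ((realizations d).card : ℝ) * (∑ G ∈ realizations d, f G ^ 2)
          - (∑ G ∈ realizations d, f G) ^ 2
        ≤ ((realizations d).card : ℝ) / (2 * lam) * ∑ G ∈ realizations d, ∑ G' ∈ realizations d,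
            (proposalCount G G' : ℝ) * (f G - f G') ^ 2) :
    (∃ t : ℕ, t ≤ 2 * n ^ 8 ∧ ∀ G ∈ realizations d,
        tvDist (fun G' => (kernel n ^ t) G G') (unifOn (realizations d)) ≤ 1 / 4) ∧
      ∀ f : Finset (Edge n) → ℝ,
        ((realizations d).card : ℝ) *
              (∑ G ∈ realizations d, f G ^ 2) -
            (∑ G ∈ realizations d, f G) ^ 2 ≤
          24 * (n : ℝ) ^ 2 * (n.choose 4 : ℝ) * (realizations d).card *
            ∑ G ∈ realizations d,
              f G * (f G - ∑ G' ∈ realizations d, kernel n G G' * f G') := by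
  set Ω := realizations d with hΩ
  set N : ℝ := (n.choose 4 : ℝ) with hN
  have hN0 : 0 < N := by
    rw [hN]; exact_mod_cast Nat.choose_pos hn
  have hn0 : (0:ℝ) < n := by
    have : 0 < n := by omega
    exact_mod_cast this
  have hn4 : (4:ℝ) ≤ n := by exact_mod_cast hn
  have hlam0 : 0 < lam := lt_of_lt_of_le (by positivity) hlam
  have hcard : (0:ℝ) < Ω.card := by exact_mod_cast hd.card_pos
  have hlam' : 1 / lam ≤ 2 * (n : ℝ) ^ 2 := by
    rw [div_le_iff₀ hlam0]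
    rw [div_le_iff₀ (by positivity)] at hlam
    linarith
  have hDnn : ∀ f : Finset (Edge n) → ℝ, 0 ≤ ∑ G ∈ Ω, ∑ G' ∈ Ω,
      (proposalCount G G' : ℝ) * (f G - f G') ^ 2 := fun f =>
    Finset.sum_nonneg fun G _ => Finset.sum_nonneg fun G' _ => by positivity
  have hPoinc : ∀ f : Finset (Edge n) → ℝ,
        (Ω.card : ℝ) * (∑ G ∈ Ω, f G ^ 2) - (∑ G ∈ Ω, f G) ^ 2 ≤
          24 * (n : ℝ) ^ 2 * N * Ω.card *
            ∑ G ∈ Ω, f G * (f G - ∑ G' ∈ Ω, kernel n G G' * f G') := by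
    intro f
    have h1 := hgap f
    rw [dirichlet hn d f]
    set D := ∑ G ∈ Ω, ∑ G' ∈ Ω, (proposalCount G G' : ℝ) * (f G - f G') ^ 2 with hD
    have hD0 : 0 ≤ D := hDnn f
    refine h1.trans ?_
    have e1 : (Ω.card : ℝ) / (2 * lam) * D = (Ω.card * D / 2) * (1 / lam) := by
      field_simp
    have e2 : 24 * (n : ℝ) ^ 2 * N * Ω.card * (1 / (24 * N) * D)
        = (Ω.card * D / 2) * (2 * (n : ℝ) ^ 2) := by
      field_simp
    rw [e1, e2]
    exact mul_le_mul_of_nonneg_left hlam' (by positivity)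
  refine ⟨⟨2 * n ^ 8, le_rfl, fun G₀ hG₀ => ?_⟩, hPoinc⟩
  -- mixing
  set γ : ℝ := 1 / (n : ℝ) ^ 6 with hγ
  have hγ0 : 0 < γ := by positivity
  have hγ1 : γ < 1 := by
    rw [hγ, div_lt_one (by positivity)]
    have : (4:ℝ) ^ 6 ≤ (n : ℝ) ^ 6 := pow_le_pow_left₀ (by norm_num) hn4 6
    linarith [show (1:ℝ) < 4 ^ 6 by norm_num]
  have hNle : N ≤ (n : ℝ) ^ 4 / 24 := by
    have := Nat.choose_le_pow_div (α := ℝ) 4 n
    rw [hN]
    refine this.trans (le_of_eq ?_)
    norm_num [Nat.factorial]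
  have hρgap : ∀ f : Finset (Edge n) → ℝ, ∑ x ∈ Ω, f x = 0 →
      ∑ x ∈ Ω, f x * ∑ y ∈ Ω, kernel n x y * f y ≤ (1 - γ) * ∑ x ∈ Ω, f x ^ 2 := by
    intro f hf
    have h1 := hPoinc f
    rw [hf] at h1
    set Q := ∑ G ∈ Ω, f G * (f G - ∑ G' ∈ Ω, kernel n G G' * f G') with hQ
    have hQ0 : 0 ≤ Q := by
      rw [hQ, dirichlet hn d f]
      exact mul_nonneg (by positivity) (hDnn f)
    have e1 : Q = ∑ x ∈ Ω, f x ^ 2 - ∑ x ∈ Ω, f x * ∑ y ∈ Ω, kernel n x y * f y := by
      rw [hQ, ← Finset.sum_sub_distrib]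
      refine Finset.sum_congr rfl fun x _ => by ring
    have h2 : ∑ x ∈ Ω, f x ^ 2 ≤ 24 * (n : ℝ) ^ 2 * N * Q := by
      have h3 : (Ω.card : ℝ) * (∑ x ∈ Ω, f x ^ 2) ≤ Ω.card * (24 * (n : ℝ) ^ 2 * N * Q) := by
        refine le_trans (le_of_eq ?_) (h1.trans (le_of_eq ?_))
        · ring
        · ring
      exact le_of_mul_le_mul_left h3 hcard
    have h4 : 24 * (n : ℝ) ^ 2 * N * Q ≤ (n : ℝ) ^ 6 * Q := by
      apply mul_le_mul_of_nonneg_right _ hQ0
      calc 24 * (n : ℝ) ^ 2 * N ≤ 24 * (n : ℝ) ^ 2 * ((n : ℝ) ^ 4 / 24) :=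
            mul_le_mul_of_nonneg_left hNle (by positivity)
        _ = (n : ℝ) ^ 6 := by ring
    have h5 : γ * ∑ x ∈ Ω, f x ^ 2 ≤ Q := by
      rw [hγ, div_mul_eq_mul_div, one_mul, div_le_iff₀ (by positivity)]
      linarith
    linarith
  have htv := tv_bound Ω hd (fun G G' => (proposalCount G G' : ℝ) / (12 * N))
    (fun x y => by positivity) (fun x _ y _ => by rw [proposalCount_symm])
    (fun x hx => by
      rw [← Finset.sum_div, proposalCount_row_on d x hx, ← hN]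
      field_simp
      norm_num)
    (fun x hx y hy => by rw [proposalCount_out d x y hx hy]; simp)
    (kernel n) (fun x y => rfl) (1 - γ) (by linarith) hρgap G₀ hG₀ (2 * n ^ 8)
  refine htv.trans ?_
  have hs : Real.sqrt Ω.card ≤ Real.exp ((n : ℝ) ^ 2 / 2) := by
    rw [Real.sqrt_le_left (Real.exp_pos _).le, ← Real.exp_nat_mul]
    refine (card_real_le d).trans (le_of_eq ?_)
    congr 1
    push_cast
    ring
  have hp : (1 - γ) ^ (2 * n ^ 8) ≤ Real.exp (-(2 * (n : ℝ) ^ 2)) := by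
    have h1 : 1 - γ ≤ Real.exp (-γ) := by
      have := Real.add_one_le_exp (-γ)
      linarith
    calc (1 - γ) ^ (2 * n ^ 8) ≤ (Real.exp (-γ)) ^ (2 * n ^ 8) :=
          pow_le_pow_left₀ (by linarith) h1 _
      _ = Real.exp (-(2 * (n : ℝ) ^ 2)) := by
        rw [← Real.exp_nat_mul]
        congr 1
        rw [hγ]
        push_cast
        field_simp
  have hmul : Real.sqrt Ω.card * (1 - γ) ^ (2 * n ^ 8) ≤ Real.exp ((n : ℝ) ^ 2 / 2)
      * Real.exp (-(2 * (n : ℝ) ^ 2)) :=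
    mul_le_mul hs hp (pow_nonneg (by linarith) _) (Real.exp_pos _).le
  rw [← Real.exp_add] at hmul
  have hfin : Real.exp ((n : ℝ) ^ 2 / 2 + -(2 * (n : ℝ) ^ 2)) ≤ 1 / 2 := by
    have h1 : (n : ℝ) ^ 2 / 2 + -(2 * (n : ℝ) ^ 2) ≤ -1 := by nlinarith
    have h2 : Real.exp (-1) ≤ 1 / 2 := by
      rw [Real.exp_neg, inv_le_comm₀ (Real.exp_pos _) (by norm_num)]
      have := Real.add_one_le_exp (1:ℝ)
      norm_num
      linarith
    exact (Real.exp_le_exp.2 h1).trans h2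
  linarith

end pm

end Crest.Agent.SW
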